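import Vale.Agent.P097.H109.Saw
import Vale.Agent.P097.H226.Inc
import Vale.Agent.P097.H593.ND1

/-!
P097, row GQ, second half (helper593): the vertical axis over a foot in the sawtooth.
-/

set_option linter.all false

open Complex Metric Filter Topology Set MeasureTheory

namespace Vale.Agent.P097.H593.GQ

open Vale.Agent.P097.TC Vale.Agent.P097.H264 Vale.Agent.P097.H877.Bd

theorem isOpen_Sw (κ C h : ℝ) (A : Set (ℝ × ℝ)) : IsOpen (Sw κ C h A) := by
  have h4 : {z : ℂ × ℂ | ∃ e ∈ A, dist (z.1.re, z.2.re) e < C * z.1.im} =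
      ⋃ e ∈ A, {z : ℂ × ℂ | dist (z.1.re, z.2.re) e < C * z.1.im} := by
    ext z
    simp
  have e1 : Sw κ C h A = {z : ℂ × ℂ | 0 < z.1.im} ∩ ({z | z.1.im < h} ∩
      ({z | |z.2.im| < κ * z.1.im} ∩ {z | ∃ e ∈ A, dist (z.1.re, z.2.re) e < C * z.1.im})) := rfl
  rw [e1, h4]
  refine (isOpen_lt (by fun_prop) (by fun_prop)).inter
    ((isOpen_lt (by fun_prop) (by fun_prop)).inter
    ((isOpen_lt (by fun_prop) (by fun_prop)).inter ?_))
  exact isOpen_biUnion fun e _ => isOpen_lt (by fun_prop) (by fun_prop)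

theorem pt_Sw {κ C h : ℝ} (hκ : 0 < κ) (hC : 0 < C) {A : Set (ℝ × ℝ)} {e : ℝ × ℝ} (he : e ∈ A)
    {r : ℝ} (hr : 0 < r) (hrh : r < h) : pt e r ∈ Sw κ C h A := by
  refine ⟨by simpa using hr, by simpa using hrh, ?_, e, he, ?_⟩
  · simp only [pt_2im, pt_1im, abs_zero]; positivity
  · simp only [pt_1re, pt_2re, pt_1im, Prod.mk.eta, dist_self]; positivity

theorem bl_I (e : ℝ × ℝ) (r τ : ℝ) : bl e r ((τ : ℂ) * I, 0) = pt e (r * τ) := by
  unfold bl pt
  apply Prod.ext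
  · simp only [ofReal_mul]; ring
  · simp

theorem I_mem {k τ : ℝ} (hk : 0 < k) (hτ : 0 < τ) : ((τ : ℂ) * I, (0 : ℂ)) ∈ Tc (K1 k) := by
  show |((0 : ℂ)).im| < k * ((τ : ℂ) * I).im
  simp only [zero_im, abs_zero, mul_im, ofReal_re, I_im, mul_one, ofReal_im, I_re, mul_zero,
    add_zero]
  positivity

/-- the constant of the chain on the axis -/
noncomputable def Kc (κ C : ℝ) : ℝ := Kw κ 0 C 0 * 2 ^ pw κ 0 C 0 * 2 ^ pw κ 0 C 0

theorem Kw_pos (κ κ₁ C C₁ : ℝ) : 0 < Kw κ κ₁ C C₁ := by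
  unfold Kw
  have := KS_one
  have : 0 < KS := by linarith
  positivity

theorem Kc_pos (κ C : ℝ) : 0 < Kc κ C := by
  unfold Kc
  have := Kw_pos κ 0 C 0
  positivity

/-- **chain on the axis** -/
theorem ax_chain {κ C h : ℝ} (hκ : 0 < κ) (hC : 1 < C) {A : Set (ℝ × ℝ)} {g : ℂ × ℂ → ℂ}
    (hg : LogOm (Sw κ C h A) g) {e : ℝ × ℝ} (he : e ∈ A) {t t' : ℝ} (ht : 0 < t) (ht' : 0 < t')
    (h1 : t ≤ 2 * t') (h2 : t' ≤ 2 * t) (h3 : 2 * t ≤ h) (h4 : 2 * t' ≤ h) :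
    1 + |(g (pt e t')).re| ≤ Kc κ C * (1 + |(g (pt e t)).re|) := by
  have hP : ∀ s : ℝ, 0 < s → Pt 0 0 A (pt e s) := fun s hs =>
    pt_Pt le_rfl hs ⟨e, he, by rw [dist_self]; simp⟩
  have key := (saw_chain (κ := κ) (κ₁ := 0) (C := C) (C₁ := 0) (h := h) (A := A) le_rfl hκ le_rfl
    (by linarith) hg (hP t ht) (hP t' ht') (ρ := max t t') (by
      rcases le_total t t' with h5 | h5
      · rw [max_eq_right h5]; exact h4
      · rw [max_eq_left h5]; exact h3)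
    (by simp) (by simp) (by simp only [pt_1re, pt_2re, dist_self]; positivity)).2
  simp only [pt_1im] at key
  refine key.trans ?_
  have hp : 0 ≤ pw κ 0 C 0 := by
    unfold pw
    exact pS_nonneg (opn_pos le_rfl hκ le_rfl (by linarith))
  have hm : 0 < max t t' := lt_max_of_lt_left ht
  have r1 : (max t t' / t) ^ pw κ 0 C 0 ≤ 2 ^ pw κ 0 C 0 := by
    apply Real.rpow_le_rpow (by positivity) _ hp
    rw [div_le_iff₀ ht]
    exact max_le (by linarith) h2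
  have r2 : (max t t' / t') ^ pw κ 0 C 0 ≤ 2 ^ pw κ 0 C 0 := by
    apply Real.rpow_le_rpow (by positivity) _ hp
    rw [div_le_iff₀ ht']
    exact max_le h1 (by linarith)
  have hK := Kw_pos κ 0 C 0
  have h0 : 0 ≤ 1 + |(g (pt e t)).re| := by positivity
  unfold Kc
  gcongr

/-- the slices contain cones -/
theorem slice_Sw {κ C h : ℝ} (hκ : 0 < κ) (hC : 0 < C) (hh : 0 < h) {A : Set (ℝ × ℝ)} :
    SliceCones (Sw κ C h A) A := by
  intro e he
  refine ⟨C, hC, h, hh, fun z hz => ?_⟩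
  obtain ⟨h1, h2⟩ := hz
  have h3 : 0 < z.im := by
    by_contra hn
    push Not at hn
    have := abs_nonneg (z.re - e.1)
    nlinarith
  refine ⟨h3, h2, ?_, e, he, ?_⟩
  · simp only [ofReal_im, abs_zero]; positivity
  · simp only [ofReal_re]
    rw [Prod.dist_eq]
    simp only [dist_self]
    rw [max_eq_left dist_nonneg, Real.dist_eq]
    exact h1

/-- the slice disc `B(e.1 + 100 h i, 99.995 h)` is in the sawtooth -/
theorem slice_ball {κ C h : ℝ} (hκ : 0 < κ) (hC : 20000 ≤ C) {A : Set (ℝ × ℝ)} {e : ℝ × ℝ}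
    (he : e ∈ A) {s : ℝ} (hs : 0 < s) (hsh : 200 * s ≤ h) :
    ∀ z ∈ ball ((e.1 : ℂ) + 100 * (s : ℂ) * I) (99.995 * s), (z, (e.2 : ℂ)) ∈ Sw κ C h A := by
  intro z hz
  rw [mem_ball, dist_eq_norm] at hz
  have h1 := (Complex.abs_re_le_norm (z - ((e.1 : ℂ) + 100 * (s : ℂ) * I))).trans_lt hz
  have h2 := (Complex.abs_im_le_norm (z - ((e.1 : ℂ) + 100 * (s : ℂ) * I))).trans_lt hz
  simp only [sub_re, sub_im, add_re, add_im, ofReal_re, ofReal_im, mul_re, mul_im, I_re, I_im,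
    mul_zero, mul_one, sub_zero, zero_add, add_zero, zero_mul, re_ofNat, im_ofNat, sub_self] at h1 h2
  rw [abs_lt] at h2
  have h3 : 0.005 * s < z.im := by linarith [h2.1]
  have h4 : z.im < 199.995 * s := by linarith [h2.2]
  have h5 : 0 < z.im := by nlinarith
  refine ⟨h5, by linarith, ?_, e, he, ?_⟩
  · simp only [ofReal_im, abs_zero]; positivity
  · simp only [ofReal_re]
    rw [Prod.dist_eq]
    simp only [dist_self]
    rw [max_eq_left dist_nonneg, Real.dist_eq]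
    calc |z.re - e.1| < 99.995 * s := h1
      _ ≤ 20000 * (0.005 * s) := by linarith
      _ ≤ C * z.im := by gcongr

/-- dyadic scales -/
theorem dyad {h₀ r : ℝ} (hr : 0 < r) (hrh : r ≤ h₀) : ∃ n : ℕ, h₀ / 2 ^ (n + 1) < r ∧ r ≤ h₀ / 2 ^ n := by
  have h0 : 0 < h₀ := hr.trans_le hrh
  obtain ⟨n, h1, h2⟩ := exists_nat_pow_near_of_lt_one (x := r / h₀) (y := (1 / 2 : ℝ))
    (by positivity) (by rw [div_le_one h0]; exact hrh) (by norm_num) (by norm_num)
  refine ⟨n, ?_, ?_⟩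
  · rw [lt_div_iff₀ h0] at h1
    rw [div_eq_mul_inv, mul_comm, ← inv_pow, ← one_div]
    exact h1
  · rw [div_le_iff₀ h0] at h2
    rw [div_eq_mul_inv, mul_comm, ← inv_pow, ← one_div]
    exact h2

end Vale.Agent.P097.H593.GQ
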