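import Vale.Agent.P097.H593.GQ.Ax
import Vale.Agent.P097.H264.GQDefs

/-!
P097, row GQ, second half (helper593): non degeneracy on the axis and the good scales.
-/

set_option linter.all false

open Complex Metric Filter Topology Set MeasureTheory

namespace Vale.Agent.P097.H593.GQ

open Vale.Agent.P097.TC Vale.Agent.P097.H264 Vale.Agent.P097.H877.Bd

theorem bl_one (e : ℝ × ℝ) (r : ℝ) : bl e r (I, 0) = pt e r := by
  have h := bl_I e r 1
  simpa using h

theorem nt_unique {f : ℂ × ℂ → ℂ} {k : ℝ} (hk : 0 < k) {e : ℝ × ℝ} {x y : ℂ} (hx : NT f k e x)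
    (hy : NT f k e y) : x = y := by
  have h1 := hx (((1 : ℝ) : ℂ) * I, 0) (I_mem hk one_pos)
  have h2 := hy (((1 : ℝ) : ℂ) * I, 0) (I_mem hk one_pos)
  exact tendsto_nhds_unique h1 h2

theorem nt_axis {f : ℂ × ℂ → ℂ} {k : ℝ} (hk : 0 < k) {e : ℝ × ℝ} {x : ℂ} (hx : NT f k e x) :
    Tendsto (fun r : ℝ => f (pt e r)) (𝓝[>] 0) (𝓝 x) := by
  have h1 := hx (((1 : ℝ) : ℂ) * I, 0) (I_mem hk one_pos)
  have h2 : Tendsto (fun r : ℝ => (r, (((1 : ℝ) : ℂ) * I, (0 : ℂ)))) (𝓝[>] 0)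
      (𝓝[>] 0 ×ˢ 𝓝 (((1 : ℝ) : ℂ) * I, (0 : ℂ))) := tendsto_id.prodMk tendsto_const_nhds
  have h3 := h1.comp h2
  refine h3.congr fun r => ?_
  show f (bl e r (((1 : ℝ) : ℂ) * I, 0)) = f (pt e r)
  rw [bl_I, mul_one]

/-- algebra of the non degeneracy -/
theorem nd_low {del d : ℂ} {M₁ c₀ : ℝ} (hc₀ : 0 ≤ c₀) (h1 : |(2 * I * del).re| ≤ M₁)
    (h2 : c₀ ≤ ‖Complex.exp (2 * I * del) - 1‖) (h3 : |d.im| ≤ 1)
    (h4 : ‖Complex.exp (2 * I * d) - 1‖ ≤ c₀ / 2 * Real.exp (-M₁)) :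
    c₀ / 2 * Real.exp (-(M₁ / 2 + 1)) / 2 ≤ ‖Complex.sin (del + d)‖ := by
  have e0 : (2 * I * del).re = -2 * del.im := by simp
  rw [e0, abs_mul] at h1
  norm_num at h1
  refine ND.sin_low (δ := del + d) (M := M₁ / 2 + 1) (c := c₀ / 2) ?_ ?_
  · rw [Complex.add_im]
    have := abs_add_le del.im d.im
    linarith
  · have e1 : Complex.exp (2 * I * (del + d)) - 1 =
        (Complex.exp (2 * I * del) - 1) +
          Complex.exp (2 * I * del) * (Complex.exp (2 * I * d) - 1) := by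
      rw [mul_add, Complex.exp_add]
      ring
    have e2 : ‖Complex.exp (2 * I * del)‖ ≤ Real.exp M₁ := by
      rw [Complex.norm_exp, e0]
      apply Real.exp_le_exp.2
      have := neg_abs_le del.im
      linarith
    have e3 : ‖Complex.exp (2 * I * del) * (Complex.exp (2 * I * d) - 1)‖ ≤ c₀ / 2 := by
      rw [norm_mul]
      calc ‖Complex.exp (2 * I * del)‖ * ‖Complex.exp (2 * I * d) - 1‖
          ≤ Real.exp M₁ * (c₀ / 2 * Real.exp (-M₁)) := by gcongr
        _ = c₀ / 2 * (Real.exp M₁ * Real.exp (-M₁)) := by ring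
        _ = c₀ / 2 := by rw [← Real.exp_add, add_neg_cancel, Real.exp_zero, mul_one]
    rw [e1]
    have e4 := norm_sub_le (Complex.exp (2 * I * del) - 1 +
      Complex.exp (2 * I * del) * (Complex.exp (2 * I * d) - 1))
      (Complex.exp (2 * I * del) * (Complex.exp (2 * I * d) - 1))
    rw [add_sub_cancel_right] at e4
    linarith

/-- **non degeneracy near the vertex** -/
theorem nd_ev {F : ℂ → ℂ} {al th : ℂ × ℂ → ℂ} {e : ℝ × ℝ} {y : ℂ}
    (hF : Tendsto (fun r : ℝ => F (th (pt e r))) (𝓝[>] 0) (𝓝 y)) (M₁ : ℝ) {c₀ : ℝ} (hc₀ : 0 < c₀) :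
    ∀ᶠ r : ℝ in 𝓝[>] 0, |(2 * I * (al (pt e r) - F (th (pt e r)))).re| ≤ M₁ →
      c₀ ≤ ‖Complex.exp (2 * I * (al (pt e r) - F (th (pt e r)))) - 1‖ →
      c₀ / 2 * Real.exp (-(M₁ / 2 + 1)) / 2 ≤ ‖Complex.sin (al (pt e r) - y)‖ := by
  have h1 : Tendsto (fun r : ℝ => F (th (pt e r)) - y) (𝓝[>] 0) (𝓝 0) := by
    have := hF.sub_const y
    rwa [sub_self] at this
  have h2 : Tendsto (fun r : ℝ => Complex.exp (2 * I * (F (th (pt e r)) - y)) - 1) (𝓝[>] 0)
      (𝓝 0) := by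
    have h3 : Continuous fun w : ℂ => Complex.exp (2 * I * w) - 1 := by fun_prop
    have h4 := (h3.tendsto 0).comp h1
    have e0 : Complex.exp (2 * I * (0 : ℂ)) - 1 = 0 := by simp
    rw [e0] at h4
    exact h4
  have h5 : ∀ᶠ r : ℝ in 𝓝[>] 0, ‖F (th (pt e r)) - y‖ < 1 := by
    have := h1.norm
    rw [norm_zero] at this
    exact this.eventually_lt_const one_pos
  have h6 : ∀ᶠ r : ℝ in 𝓝[>] 0, ‖Complex.exp (2 * I * (F (th (pt e r)) - y)) - 1‖ <
      c₀ / 2 * Real.exp (-M₁) := by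
    have := h2.norm
    rw [norm_zero] at this
    exact this.eventually_lt_const (by positivity)
  filter_upwards [h5, h6] with r h7 h8 h9 h10
  have key := nd_low (del := al (pt e r) - F (th (pt e r))) (d := F (th (pt e r)) - y) hc₀.le h9 h10
    ((Complex.abs_im_le_norm _).trans h7.le) h8.le
  have e1 : al (pt e r) - F (th (pt e r)) + (F (th (pt e r)) - y) = al (pt e r) - y := by ring
  rwa [e1] at key

/-- away from the unit circle the exponential is not near 1 -/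
theorem exp_far {g : ℂ} {K : ℝ} (hK : K < |g.re|) :
    1 - Real.exp (-K) ≤ ‖Complex.exp g - 1‖ := by
  rcases le_or_gt 0 g.re with h | h
  · rw [abs_of_nonneg h] at hK
    have h1 : Real.exp g.re - 1 ≤ ‖Complex.exp g - 1‖ := by
      have := norm_sub_norm_le (Complex.exp g) 1
      rwa [norm_one, Complex.norm_exp] at this
    rcases le_or_gt 0 K with h0 | h0
    · have h2 : Real.exp K ≤ Real.exp g.re := Real.exp_le_exp.2 hK.le
      have h3 := Real.add_one_le_exp K
      have h4 : Real.exp K * Real.exp (-K) = 1 := by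
        rw [← Real.exp_add, add_neg_cancel, Real.exp_zero]
      have h5 : 1 ≤ Real.exp K := Real.one_le_exp h0
      have h6 : 0 < Real.exp (-K) := Real.exp_pos _
      nlinarith
    · have : 1 ≤ Real.exp (-K) := Real.one_le_exp (by linarith)
      have := norm_nonneg (Complex.exp g - 1)
      linarith
  · rw [abs_of_neg h] at hK
    have h1 : 1 - Real.exp g.re ≤ ‖Complex.exp g - 1‖ := by
      have := norm_sub_norm_le 1 (Complex.exp g)
      rwa [norm_one, Complex.norm_exp, norm_sub_rev] at this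
    have h2 : Real.exp g.re ≤ Real.exp (-K) := Real.exp_le_exp.2 (by linarith)
    linarith

theorem Dc_inv_lt : H226.Dc⁻¹ ^ (3 * 2) < 1 := by
  have h := H226.one_lt_Dc
  have h1 : H226.Dc⁻¹ < 1 := inv_lt_one_of_one_lt₀ h
  exact pow_lt_one₀ (by positivity) h1 (by norm_num)

/-- bounded values have bounded weighted sums -/
theorem Sg_bdd {V : ℕ → ℝ} {M₁ σ : ℝ} (hM : 0 ≤ M₁) (hσ : |σ| ≤ 1) (hV : ∀ m, |V m| ≤ M₁) (n : ℕ) :
    Sg V σ n ≤ M₁ * (1 - H226.Dc⁻¹ ^ (3 * 2))⁻¹ := by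
  set w : ℝ := H226.Dc⁻¹ ^ (3 * 2) with hw
  have hD := H226.one_lt_Dc
  have hw0 : 0 ≤ w := by rw [hw]; positivity
  have hw1 : w < 1 := Dc_inv_lt
  unfold Sg
  rw [← hw]
  calc ∑ m ∈ Finset.range (n + 1), w ^ (n - m) * max (σ * V m) 0
      ≤ ∑ m ∈ Finset.range (n + 1), w ^ (n - m) * M₁ := by
        apply Finset.sum_le_sum
        intro m _
        have : max (σ * V m) 0 ≤ M₁ := by
          refine max_le ?_ hM
          refine (le_abs_self _).trans ?_
          rw [abs_mul]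
          calc |σ| * |V m| ≤ 1 * M₁ := by
                have := hV m
                gcongr
            _ = M₁ := one_mul _
        gcongr
    _ = M₁ * ∑ j ∈ Finset.range (n + 1), w ^ j := by
        rw [← Finset.sum_mul, mul_comm]
        congr 1
        rw [← Finset.sum_range_reflect (fun j => w ^ j) (n + 1)]
        rfl
    _ ≤ M₁ * (1 - w)⁻¹ := by
        have h2 : ∑ j ∈ Finset.range (n + 1), w ^ j ≤ (1 - w)⁻¹ := by
          have h3 := Summable.sum_le_tsum (Finset.range (n + 1)) (fun i _ => pow_nonneg hw0 i)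
            (summable_geometric_of_lt_one hw0 hw1)
          rwa [tsum_geometric_of_lt_one hw0 hw1] at h3
        gcongr

end Vale.Agent.P097.H593.GQ
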