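import Vale.Agent.P097.H593.GQ.Ax

/-!
P097, row GQ, core (helper593): the sign preserving Schottky chain in the sawtooth.
-/

set_option linter.all false

open Complex Metric Filter Topology Set MeasureTheory

namespace Vale.Agent.P097.H593.GQ

open Vale.Agent.P097.TC Vale.Agent.P097.H264

theorem mul_pos_of_ne {φ : ℝ → ℝ} {a b : ℝ} (hab : a ≤ b) (hφ : ContinuousOn φ (Icc a b))
    (hne : ∀ t ∈ Icc a b, φ t ≠ 0) : 0 < φ a * φ b := by
  by_contra hcon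
  push Not at hcon
  have h1 : (0 : ℝ) ∈ uIcc (φ a) (φ b) := by
    rw [mem_uIcc]
    rcases mul_nonpos_iff.1 hcon with h | h
    · exact Or.inr ⟨h.2, h.1⟩
    · exact Or.inl ⟨h.1, h.2⟩
  rw [← uIcc_of_le hab] at hφ hne
  obtain ⟨t, ht, h0⟩ := intermediate_value_uIcc hφ h1
  exact hne t ht h0

/-- a point with real second coordinate is a vertical point -/
theorem eq_pt {C₁ : ℝ} {A : Set (ℝ × ℝ)} {z : ℂ × ℂ} (hz : Pt 0 C₁ A z) :
    z = pt (z.1.re, z.2.re) z.1.im := by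
  have h1 : z.2.im = 0 := by
    have := hz.2.1
    rw [zero_mul] at this
    exact abs_nonpos_iff.1 this
  unfold pt
  apply Prod.ext
  · apply Complex.ext <;> simp
  · apply Complex.ext
    · simp
    · simp [h1]

theorem Pt.mono {κ C₁ C₂ : ℝ} {A : Set (ℝ × ℝ)} {z : ℂ × ℂ} (h : Pt κ C₁ A z) (hC : C₁ ≤ C₂) :
    Pt κ C₂ A z := by
  obtain ⟨h1, h2, e, he, h3⟩ := h
  exact ⟨h1, h2, e, he, h3.trans (by gcongr)⟩

/-- the constant of the pair lemma -/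
noncomputable def Qw (κ C C₁ x : ℝ) : ℝ :=
  Kw κ 0 C (1 + C₁) * x ^ pw κ 0 C (1 + C₁) * x ^ pw κ 0 C (1 + C₁)

section

variable {κ C C₁ h : ℝ} {A : Set (ℝ × ℝ)} {g : ℂ × ℂ → ℂ}

theorem Qw_pos {x : ℝ} (hx : 0 < x) : 0 < Qw κ C C₁ x := by
  unfold Qw
  have := Kw_pos κ 0 C (1 + C₁)
  positivity

/-- the chain with one constant -/
theorem chainQ (hκ : 0 < κ) (hC₁ : 0 ≤ C₁) (hC : 2 + C₁ < C) (hg : LogOm (Sw κ C h A) g)
    {z w : ℂ × ℂ} (hz : Pt 0 (1 + C₁) A z) (hw : Pt 0 (1 + C₁) A w) {m ρ : ℝ} (hm : 0 < m)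
    (hρ : 2 * ρ ≤ h) (hzm : m ≤ z.1.im) (hwm : m ≤ w.1.im) (hzρ : z.1.im ≤ ρ) (hwρ : w.1.im ≤ ρ)
    (hd : dist (z.1.re, z.2.re) (w.1.re, w.2.re) ≤ ρ) :
    ‖g w - g z‖ ≤ Qw κ C C₁ (ρ / m) * (1 + |(g z).re|) ∧
      1 + |(g w).re| ≤ Qw κ C C₁ (ρ / m) * (1 + |(g z).re|) := by
  obtain ⟨h1, h2⟩ := saw_chain (κ := κ) (κ₁ := 0) (C := C) (C₁ := 1 + C₁) (h := h) (A := A) le_rfl
    hκ (by linarith) (by linarith) hg hz hw hρ hzρ hwρ hd
  have hp : 0 ≤ pw κ 0 C (1 + C₁) := by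
    unfold pw
    exact pS_nonneg (opn_pos le_rfl hκ (by linarith) (by linarith))
  have hρ0 : 0 < ρ := hm.trans_le (hzm.trans hzρ)
  have hz0 : 0 < z.1.im := hm.trans_le hzm
  have hw0 : 0 < w.1.im := hm.trans_le hwm
  have r1 : (ρ / z.1.im) ^ pw κ 0 C (1 + C₁) ≤ (ρ / m) ^ pw κ 0 C (1 + C₁) :=
    Real.rpow_le_rpow (by positivity) (by gcongr) hp
  have r2 : (ρ / w.1.im) ^ pw κ 0 C (1 + C₁) ≤ (ρ / m) ^ pw κ 0 C (1 + C₁) :=
    Real.rpow_le_rpow (by positivity) (by gcongr) hp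
  have hK := Kw_pos κ 0 C (1 + C₁)
  have hb : Kw κ 0 C (1 + C₁) * (ρ / z.1.im) ^ pw κ 0 C (1 + C₁) *
      (ρ / w.1.im) ^ pw κ 0 C (1 + C₁) ≤ Qw κ C C₁ (ρ / m) := by
    unfold Qw
    gcongr
  have h0 : 0 ≤ 1 + |(g z).re| := by positivity
  exact ⟨h1.trans (by gcongr), h2.trans (by gcongr)⟩

/-- **sign preservation** -/
theorem sign_pres (hκ : 0 < κ) (hC₁ : 0 ≤ C₁) (hC : 2 + C₁ < C) (hg : LogOm (Sw κ C h A) g)
    {z w : ℂ × ℂ} (hz : Pt 0 C₁ A z) (hw : Pt 0 C₁ A w) {m ρ : ℝ} (hm : 0 < m)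
    (hρ : 2 * ρ ≤ h) (hzm : m ≤ z.1.im) (hwm : m ≤ w.1.im) (hzρ : z.1.im ≤ ρ) (hwρ : w.1.im ≤ ρ)
    (hd : dist (z.1.re, z.2.re) (w.1.re, w.2.re) ≤ ρ)
    (hbig : Qw κ C C₁ (ρ / m) ≤ |(g z).re|) : 0 < (g z).re * (g w).re := by
  have hz0 : 0 < z.1.im := hm.trans_le hzm
  have hw0 : 0 < w.1.im := hm.trans_le hwm
  have hρ0 : 0 < ρ := hz0.trans_le hzρ
  set P : ℝ × ℝ := (z.1.re, z.2.re) with hP
  set R : ℝ × ℝ := (w.1.re, w.2.re) with hR
  have hzm' : Pt 0 (1 + C₁) A z := Pt.mono hz (by linarith)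
  -- no zero of the real part
  have key : ∀ (S : ℝ × ℝ) (t : ℝ), m ≤ t → t ≤ ρ → (∃ e ∈ A, dist S e ≤ (1 + C₁) * t) →
      dist S P ≤ ρ → (g (pt S t)).re ≠ 0 := by
    intro S t hmt htρ hA hSP h0
    have ht0 : 0 < t := hm.trans_le hmt
    have h1 : Pt 0 (1 + C₁) A (pt S t) := pt_Pt le_rfl ht0 hA
    have h2 := (chainQ hκ hC₁ hC hg h1 hzm' hm hρ (by simpa using hmt) hzm (by simpa using htρ) hzρ
      (by simpa using hSP)).2
    rw [h0, abs_zero, add_zero, mul_one] at h2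
    linarith
  -- membership in the sawtooth, for continuity
  have mem : ∀ (S : ℝ × ℝ) (t : ℝ), 0 < t → t ≤ ρ → (∃ e ∈ A, dist S e ≤ (1 + C₁) * t) →
      pt S t ∈ Sw κ C h A := by
    intro S t ht0 htρ hA
    have h1 : Pt 0 (1 + C₁) A (pt S t) := pt_Pt le_rfl ht0 hA
    have h2 := Pt.ball le_rfl hκ (by linarith) (by linarith : 1 + C₁ < C) (h := h) h1
      (by rw [pt_1im]; linarith)
    refine h2 (mem_ball_self ?_)
    rw [pt_1im]
    have := opn_pos le_rfl hκ (by linarith : (0 : ℝ) ≤ 1 + C₁) (by linarith : 1 + C₁ < C)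
    positivity
  have cpt : ∀ S : ℝ × ℝ, Continuous fun t : ℝ => pt S t := fun S => by
    unfold pt
    fun_prop
  obtain ⟨ez, hez, hdz⟩ := hz.2.2
  obtain ⟨ew, hew, hdw⟩ := hw.2.2
  have nz : ∀ t, z.1.im ≤ t → ∃ e ∈ A, dist P e ≤ (1 + C₁) * t := fun t ht =>
    ⟨ez, hez, hdz.trans (by nlinarith)⟩
  have nw : ∀ t, w.1.im ≤ t → ∃ e ∈ A, dist R e ≤ (1 + C₁) * t := fun t ht =>
    ⟨ew, hew, hdw.trans (by nlinarith)⟩
  -- segment 1
  have s1 : 0 < (g (pt P z.1.im)).re * (g (pt P ρ)).re := by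
    refine mul_pos_of_ne (φ := fun t => (g (pt P t)).re) hzρ ?_ fun t ht => ?_
    · refine Complex.continuous_re.comp_continuousOn ?_
      exact hg.hol.continuousOn.comp (cpt P).continuousOn fun t ht =>
        mem P t (hz0.trans_le ht.1) ht.2 (nz t ht.1)
    · exact key P t (hzm.trans ht.1) ht.2 (nz t ht.1) (by rw [dist_self]; exact hρ0.le)
  -- segment 3
  have s3 : 0 < (g (pt R w.1.im)).re * (g (pt R ρ)).re := by
    refine mul_pos_of_ne (φ := fun t => (g (pt R t)).re) hwρ ?_ fun t ht => ?_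
    · refine Complex.continuous_re.comp_continuousOn ?_
      exact hg.hol.continuousOn.comp (cpt R).continuousOn fun t ht =>
        mem R t (hw0.trans_le ht.1) ht.2 (nw t ht.1)
    · exact key R t (hwm.trans ht.1) ht.2 (nw t ht.1) (by rw [dist_comm]; exact hd)
  -- segment 2
  set ψ : ℝ → ℝ × ℝ := fun s => (P.1 + s * (R.1 - P.1), P.2 + s * (R.2 - P.2)) with hψ
  have hψP : ∀ s ∈ Icc (0 : ℝ) 1, dist (ψ s) P ≤ ρ := by
    intro s hs
    refine le_trans ?_ hd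
    rw [Prod.dist_eq, Prod.dist_eq]
    refine max_le_max ?_ ?_
    · rw [Real.dist_eq, Real.dist_eq, abs_sub_comm P.1]
      simp only [hψ, add_sub_cancel_left]
      rw [abs_mul, abs_of_nonneg hs.1]
      exact mul_le_of_le_one_left (abs_nonneg _) hs.2
    · rw [Real.dist_eq, Real.dist_eq, abs_sub_comm P.2]
      simp only [hψ, add_sub_cancel_left]
      rw [abs_mul, abs_of_nonneg hs.1]
      exact mul_le_of_le_one_left (abs_nonneg _) hs.2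
  have hψA : ∀ s ∈ Icc (0 : ℝ) 1, ∃ e ∈ A, dist (ψ s) e ≤ (1 + C₁) * ρ := by
    intro s hs
    refine ⟨ez, hez, ?_⟩
    have h1 := dist_triangle (ψ s) P ez
    have h2 := hψP s hs
    have h3 : C₁ * z.1.im ≤ C₁ * ρ := by gcongr
    have h4 : dist P ez ≤ C₁ * z.1.im := hdz
    linarith
  have s2 : 0 < (g (pt (ψ 0) ρ)).re * (g (pt (ψ 1) ρ)).re := by
    refine mul_pos_of_ne (φ := fun s => (g (pt (ψ s) ρ)).re) zero_le_one ?_ fun s hs => ?_
    · refine Complex.continuous_re.comp_continuousOn ?_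
      have hc : Continuous fun s : ℝ => pt (ψ s) ρ := by
        unfold pt
        simp only [hψ]
        fun_prop
      exact hg.hol.continuousOn.comp hc.continuousOn fun s hs =>
        mem (ψ s) ρ hρ0 le_rfl (hψA s hs)
    · exact key (ψ s) ρ (hzm.trans hzρ) le_rfl (hψA s hs) (hψP s hs)
  have e0 : ψ 0 = P := by simp [hψ]
  have e1 : ψ 1 = R := by simp [hψ]
  rw [e0, e1] at s2
  rw [eq_pt hz, eq_pt hw]
  have t1 := mul_pos s1 s2
  have t2 := mul_pos t1 s3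
  have t3 : (g (pt P z.1.im)).re * (g (pt P ρ)).re * ((g (pt P ρ)).re * (g (pt R ρ)).re) *
      ((g (pt R w.1.im)).re * (g (pt R ρ)).re) =
      ((g (pt P z.1.im)).re * (g (pt R w.1.im)).re) *
        ((g (pt P ρ)).re * (g (pt R ρ)).re) ^ 2 := by ring
  rw [t3] at t2
  by_contra hcon
  push Not at hcon
  have t4 := mul_nonpos_of_nonpos_of_nonneg hcon
    (sq_nonneg ((g (pt P ρ)).re * (g (pt R ρ)).re))
  linarith

/-- **the pair lemma** -/
theorem pair (hκ : 0 < κ) (hC₁ : 0 ≤ C₁) (hC : 2 + C₁ < C) (hg : LogOm (Sw κ C h A) g)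
    {z w : ℂ × ℂ} (hz : Pt 0 C₁ A z) (hw : Pt 0 C₁ A w) {m ρ : ℝ} (hm : 0 < m)
    (hρ : 2 * ρ ≤ h) (hzm : m ≤ z.1.im) (hwm : m ≤ w.1.im) (hzρ : z.1.im ≤ ρ) (hwρ : w.1.im ≤ ρ)
    (hd : dist (z.1.re, z.2.re) (w.1.re, w.2.re) ≤ ρ) :
    ‖g w - g z‖ ≤ Qw κ C C₁ (ρ / m) * (1 + |(g z).re|) ∧
    ‖g w - g z‖ ≤ Qw κ C C₁ (ρ / m) * (1 + |(g w).re|) ∧
    ∀ σ : ℝ, (σ = 1 ∨ σ = -1) →
      max (σ * (g z).re) 0 ≤ Qw κ C C₁ (ρ / m) * (1 + max (σ * (g w).re) 0) := by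
  have hρ0 : 0 < ρ := hm.trans_le (hzm.trans hzρ)
  have hQ : 0 < Qw κ C C₁ (ρ / m) := Qw_pos (by positivity)
  have hz' : Pt 0 (1 + C₁) A z := Pt.mono hz (by linarith)
  have hw' : Pt 0 (1 + C₁) A w := Pt.mono hw (by linarith)
  obtain ⟨h1, h2⟩ := chainQ hκ hC₁ hC hg hz' hw' hm hρ hzm hwm hzρ hwρ hd
  obtain ⟨h3, h4⟩ := chainQ hκ hC₁ hC hg hw' hz' hm hρ hwm hzm hwρ hzρ (by rw [dist_comm]; exact hd)
  refine ⟨h1, by rw [norm_sub_rev]; exact h3, fun σ hσ => ?_⟩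
  have hmx : 0 ≤ max (σ * (g w).re) 0 := le_max_right _ _
  rcases le_or_gt (σ * (g z).re) (Qw κ C C₁ (ρ / m)) with h5 | h5
  · refine max_le (h5.trans ?_) (by positivity)
    exact le_mul_of_one_le_right hQ.le (by linarith)
  · have hσ2 : |σ| = 1 := by rcases hσ with h | h <;> simp [h]
    have h6 : |(g z).re| = σ * (g z).re := by
      have : |σ * (g z).re| = |(g z).re| := by rw [abs_mul, hσ2, one_mul]
      rw [← this, abs_of_pos (hQ.trans h5)]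
    have h7 := sign_pres hκ hC₁ hC hg hz hw hm hρ hzm hwm hzρ hwρ hd (by rw [h6]; exact h5.le)
    have h8 : 0 < σ * (g w).re := by
      have h9 : 0 < (σ * (g z).re) * (σ * (g w).re) := by
        have : (σ * (g z).re) * (σ * (g w).re) = σ ^ 2 * ((g z).re * (g w).re) := by ring
        rw [this]
        have hs : σ ^ 2 = 1 := by rcases hσ with h | h <;> simp [h]
        rw [hs, one_mul]
        exact h7
      by_contra hcon
      push Not at hcon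
      have := mul_nonpos_of_nonneg_of_nonpos (hQ.trans h5).le hcon
      linarith
    have h10 : |(g w).re| = σ * (g w).re := by
      have : |σ * (g w).re| = |(g w).re| := by rw [abs_mul, hσ2, one_mul]
      rw [← this, abs_of_pos h8]
    rw [max_eq_left (hQ.trans h5).le, max_eq_left h8.le, ← h6, ← h10]
    linarith

end

end Vale.Agent.P097.H593.GQ
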