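import Vale.Agent.P097.H593.GQ.Nd

/-!
P097, row GQ, second half (helper593): good scales at one foot, type I and type E.
-/

set_option linter.all false

open Complex Metric Filter Topology Set MeasureTheory

namespace Vale.Agent.P097.H593.GQ

open Vale.Agent.P097.TC Vale.Agent.P097.H264 Vale.Agent.P097.H877.Bd

/-- `2 i (al - F ∘ th)` -/
noncomputable def gg (F : ℂ → ℂ) (al th : ℂ × ℂ → ℂ) (z : ℂ × ℂ) : ℂ := 2 * I * (al z - F (th z))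

theorem Vx_eq (F : ℂ → ℂ) (al th : ℂ × ℂ → ℂ) (e : ℝ × ℝ) (h₀ : ℝ) (m : ℕ) :
    Vx F al th e h₀ m = (gg F al th (pt e (h₀ / 2 ^ m))).re := rfl

/-- the good scales at the foot `e`, below the height `h₀` -/
structure Good (F : ℂ → ℂ) (al th : ℂ × ℂ → ℂ) (e : ℝ × ℝ) (y : ℂ) (h₀ K' τ c : ℝ) (n : ℕ) :
    Prop where
  V : |Vx F al th e h₀ n| ≤ K'
  S : Sg (Vx F al th e h₀) 1 n ≤ K' ∨ Sg (Vx F al th e h₀) (-1) n ≤ K'
  nd : c ≤ ‖Complex.sin (al (pt e (h₀ / 2 ^ n * τ)) - y)‖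

theorem scale_tendsto {h₀ : ℝ} (h : 0 < h₀) :
    Tendsto (fun n : ℕ => h₀ / 2 ^ n) atTop (𝓝[>] 0) := by
  refine tendsto_nhdsWithin_iff.2 ⟨?_, Eventually.of_forall fun n => by
    show 0 < h₀ / 2 ^ n
    positivity⟩
  have h1 : Tendsto (fun n : ℕ => h₀ * (1 / 2 : ℝ) ^ n) atTop (𝓝 (h₀ * 0)) :=
    (tendsto_pow_atTop_nhds_zero_of_lt_one (by norm_num) (by norm_num)).const_mul _
  rw [mul_zero] at h1
  refine h1.congr fun n => ?_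
  rw [one_div, inv_pow, div_eq_mul_inv]

/-- **type I** -/
theorem good_I {F : ℂ → ℂ} {al th : ℂ × ℂ → ℂ} {e : ℝ × ℝ} {y : ℂ}
    (hF : Tendsto (fun r : ℝ => F (th (pt e r))) (𝓝[>] 0) (𝓝 y))
    (hb : ∃ M : ℝ, ∀ᶠ r : ℝ in 𝓝[>] 0, ‖gg F al th (pt e r)‖ ≤ M)
    (hn : ∃ c > 0, ∀ᶠ r : ℝ in 𝓝[>] 0, c ≤ ‖Complex.exp (gg F al th (pt e r)) - 1‖)
    {h₁ : ℝ} (hh : 0 < h₁) :
    ∃ h₀, 0 < h₀ ∧ h₀ ≤ h₁ ∧ ∃ K' c : ℝ, 0 < c ∧ ∃ᶠ n : ℕ in atTop, Good F al th e y h₀ K' 1 c n := by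
  obtain ⟨M, hM⟩ := hb
  obtain ⟨c₀, hc₀, hn⟩ := hn
  obtain ⟨δ, hδ, hd⟩ := mem_nhdsGT_iff_exists_Ioo_subset.mp hM
  have hδ0 : (0 : ℝ) < δ := hδ
  set h₀ := min h₁ (δ / 2) with hh₀
  have h0 : 0 < h₀ := lt_min hh (by linarith)
  have hM0 : 0 ≤ M := (norm_nonneg _).trans (hd ⟨half_pos hδ0, by linarith⟩)
  have hV : ∀ m, |Vx F al th e h₀ m| ≤ M := by
    intro m
    rw [Vx_eq]
    refine (Complex.abs_re_le_norm _).trans (hd ⟨by positivity, ?_⟩)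
    have : h₀ / 2 ^ m ≤ h₀ := div_le_self h0.le (one_le_pow₀ (by norm_num))
    have : h₀ ≤ δ / 2 := min_le_right _ _
    linarith
  set K' := max M (M * (1 - H226.Dc⁻¹ ^ (3 * 2))⁻¹) with hK'
  refine ⟨h₀, h0, min_le_left _ _, K', c₀ / 2 * Real.exp (-(M / 2 + 1)) / 2, by positivity, ?_⟩
  apply Eventually.frequently
  filter_upwards [(scale_tendsto h0).eventually (nd_ev (al := al) hF M hc₀),
    (scale_tendsto h0).eventually hn] with n h1 h2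
  refine ⟨(hV n).trans (le_max_left _ _), Or.inl ?_, ?_⟩
  · exact (Sg_bdd hM0 (by norm_num) hV n).trans (le_max_right _ _)
  · rw [mul_one]
    exact h1 (hV n) h2

/-- **type E** -/
theorem good_E {F : ℂ → ℂ} {al th : ℂ × ℂ → ℂ} {A : Set (ℝ × ℝ)} {e : ℝ × ℝ} (he : e ∈ A) {y : ℂ}
    {κ C h : ℝ} (hκ : 0 < κ) (hC : 20000 ≤ C) (hh : 0 < h)
    (hg : LogOm (Sw κ C h A) (gg F al th))
    (hF : Tendsto (fun r : ℝ => F (th (pt e r))) (𝓝[>] 0) (𝓝 y))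
    (h1 : ∃ V₀ : ℝ, ∃ᶠ r : ℝ in 𝓝[>] 0, |(gg F al th (pt e r)).re| ≤ V₀)
    (h2 : ∀ V : ℝ, ∃ᶠ r : ℝ in 𝓝[>] 0, V < |(gg F al th (pt e r)).re|)
    {h₁ : ℝ} (hh₁ : 0 < h₁) :
    ∃ h₀, 0 < h₀ ∧ h₀ ≤ h₁ ∧ ∃ K' c : ℝ, 0 < c ∧ ∃ᶠ n : ℕ in atTop, Good F al th e y h₀ K' 2 c n := by
  obtain ⟨V₀, hV₀⟩ := h1
  set g := gg F al th with hgd
  have hC1 : 1 < C := by linarith
  set h₀ := min h₁ (h / 400) with hh₀
  have h0 : 0 < h₀ := lt_min hh₁ (by positivity)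
  have h0h : 400 * h₀ ≤ h := by
    have : h₀ ≤ h / 400 := min_le_right _ _
    linarith
  have hKc := Kc_pos κ C
  set K := max H226.K0 (Kc κ C * (1 + V₀)) with hK
  have hK0 : H226.K0 ≤ K := le_max_left _ _
  have hKV : Kc κ C * (1 + V₀) ≤ K := le_max_right _ _
  -- the sequence
  have hsc : ∀ n : ℕ, 0 < h₀ / 2 ^ n ∧ h₀ / 2 ^ n ≤ h₀ := fun n =>
    ⟨by positivity, div_le_self h0.le (one_le_pow₀ (by norm_num))⟩
  have hball : ∀ n : ℕ, ∀ z ∈ ball ((e.1 : ℂ) + 100 * ((h₀ / 2 ^ n : ℝ) : ℂ) * I)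
      (99.995 * (h₀ / 2 ^ n)), (z, (e.2 : ℂ)) ∈ Sw κ C h A := fun n =>
    slice_ball hκ hC he (hsc n).1 (by linarith [(hsc n).2])
  set f : ℂ → ℂ := fun z => Complex.exp (g (z, (e.2 : ℂ))) with hf
  have hseq := H226.seq_of_omit (f := f) (p := (e.1 : ℂ)) (h := h₀) h0
    (fun n => by
      refine DifferentiableOn.cexp ?_
      exact hg.hol.comp (by fun_prop) (fun z hz => hball n z hz))
    (fun n z _ => Complex.exp_ne_zero _) (fun n z hz => hg.ne _ (hball n z hz)) hK0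
  have hVf : (fun n : ℕ => Real.log ‖f ((e.1 : ℂ) + ((h₀ / 2 ^ n : ℝ) : ℂ) * I)‖) =
      Vx F al th e h₀ := by
    funext n
    rw [Vx_eq, hf]
    simp only [Complex.norm_exp, Real.log_exp]
    rfl
  rw [hVf, ← H226.Dc_pow] at hseq
  have hKp : 0 < K := hseq.K0
  -- comparison with the dyadic scales
  have hcmp : ∀ r : ℝ, 0 < r → r ≤ h₀ → ∃ n : ℕ, h₀ / 2 ^ (n + 1) < r ∧ r ≤ h₀ / 2 ^ n ∧
      1 + |Vx F al th e h₀ n| ≤ Kc κ C * (1 + |(g (pt e r)).re|) ∧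
      1 + |(g (pt e r)).re| ≤ Kc κ C * (1 + |Vx F al th e h₀ n|) := by
    intro r hr hrh
    obtain ⟨n, hn1, hn2⟩ := dyad hr hrh
    have e1 : h₀ / 2 ^ n = 2 * (h₀ / 2 ^ (n + 1)) := by rw [pow_succ]; field_simp
    have hs := hsc n
    have h3 : h₀ / 2 ^ n ≤ 2 * r := by linarith
    have h4 : 2 * r ≤ h := by linarith
    have h5 : 2 * (h₀ / 2 ^ n) ≤ h := by linarith
    exact ⟨n, hn1, hn2, ax_chain hκ hC1 hg he hr hs.1 (by linarith) h3 h4 h5,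
      ax_chain hκ hC1 hg he hs.1 hr h3 (by linarith) h5 h4⟩
  have hbig : ∀ N n : ℕ, ∀ r : ℝ, h₀ / 2 ^ (n + 1) < r → r < h₀ / 2 ^ (N + 1) → N ≤ n := by
    intro N n r hr1 hr2
    by_contra hcon
    push Not at hcon
    have : (2 : ℝ) ^ (n + 1) ≤ 2 ^ (N + 1) := pow_le_pow_right₀ (by norm_num) (by omega)
    have : h₀ / 2 ^ (N + 1) ≤ h₀ / 2 ^ (n + 1) := by gcongr
    linarith
  have io1 : ∀ N, ∃ n ≥ N, K < |Vx F al th e h₀ n| := by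
    intro N
    obtain ⟨r, hr1, hr2⟩ := ((h2 (Kc κ C * (1 + K))).and_eventually
      (Ioo_mem_nhdsGT (show (0 : ℝ) < h₀ / 2 ^ (N + 1) by positivity))).exists
    obtain ⟨n, hn1, hn2, -, hn4⟩ := hcmp r hr2.1 (hr2.2.le.trans (hsc _).2)
    refine ⟨n, hbig N n r hn1 hr2.2, ?_⟩
    by_contra hcon
    push Not at hcon
    have : Kc κ C * (1 + |Vx F al th e h₀ n|) ≤ Kc κ C * (1 + K) := by gcongr
    linarith
  have io2 : ∀ N, ∃ n ≥ N, |Vx F al th e h₀ n| ≤ K := by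
    intro N
    obtain ⟨r, hr1, hr2⟩ := (hV₀.and_eventually
      (Ioo_mem_nhdsGT (show (0 : ℝ) < h₀ / 2 ^ (N + 1) by positivity))).exists
    obtain ⟨n, hn1, hn2, hn3, -⟩ := hcmp r hr2.1 (hr2.2.le.trans (hsc _).2)
    refine ⟨n, hbig N n r hn1 hr2.2, ?_⟩
    have : Kc κ C * (1 + |(g (pt e r)).re|) ≤ Kc κ C * (1 + V₀) := by gcongr
    linarith
  -- good ends
  have hc₀ : 0 < 1 - Real.exp (-K) := by
    have h9 : Real.exp (-K) < Real.exp 0 := Real.exp_lt_exp.2 (by linarith)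
    rw [Real.exp_zero] at h9
    linarith
  set M₁ := 2.03 * K with hM₁
  have hD := H226.one_lt_Dc
  set K' := K * (H226.Dc / (H226.Dc - 1)) with hK'
  have hDr : 1 ≤ H226.Dc / (H226.Dc - 1) := by
    rw [le_div_iff₀ (by linarith)]
    linarith
  have hKK' : K ≤ K' := by
    rw [hK']
    exact le_mul_of_one_le_right hKp.le hDr
  refine ⟨h₀, h0, min_le_left _ _, K', (1 - Real.exp (-K)) / 2 * Real.exp (-(M₁ / 2 + 1)) / 2,
    by positivity, ?_⟩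
  obtain ⟨δ, hδ, hd⟩ := mem_nhdsGT_iff_exists_Ioo_subset.mp (nd_ev (al := al) hF M₁ hc₀)
  have hδ0 : (0 : ℝ) < δ := hδ
  obtain ⟨n₂, hn₂⟩ := ((scale_tendsto h0).eventually (Ioo_mem_nhdsGT hδ0)).exists_forall_of_atTop
  rw [frequently_atTop]
  intro N
  obtain ⟨n, hnN, hE, hS⟩ := H226.exc (D := H226.Dc) (M := 2) hD le_rfl hseq io1 io2 (max N (n₂ + 1))
  have hnN1 : N ≤ n := (le_max_left _ _).trans hnN
  have hnN2 : n₂ + 1 ≤ n := (le_max_right _ _).trans hnN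
  obtain ⟨hE0, hE1, hE2⟩ := hE
  refine ⟨n, hnN1, hE1.trans hKK', ?_, ?_⟩
  · rcases hS with ⟨-, hS⟩ | ⟨-, hS⟩
    · left
      unfold Sg
      simpa only [one_mul] using hS
    · right
      unfold Sg
      simpa only [neg_one_mul] using hS
  · obtain ⟨m, rfl⟩ : ∃ m, n = m + 1 := ⟨n - 1, by omega⟩
    have e1 : h₀ / 2 ^ (m + 1) * 2 = h₀ / 2 ^ m := by rw [pow_succ]; field_simp
    rw [e1]
    have hm : K < |Vx F al th e h₀ m| := hE2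
    have hm2 : |Vx F al th e h₀ m| ≤ M₁ := by
      have h3 := hseq.grow m hm
      rw [H226.Dc_pow, max_eq_right hE1] at h3
      exact h3
    have hm3 : h₀ / 2 ^ m ∈ Ioo 0 δ := hn₂ m (by omega)
    exact hd hm3 hm2 (exp_far hm)

end Vale.Agent.P097.H593.GQ
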